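import Vale.Agent.P331.H316.Rows

/-!
# The constants

All parameters are natural powers of one small number.
-/

set_option autoImplicit false
set_option linter.unusedSectionVars false
set_option linter.unusedVariables false

namespace Vale.Agent.P331.H786

open Finset Vale.Agent.P331.H489 Vale.Agent.P331.H316 Vale.Agent.P331
open scoped Classical

/-- the scale of level `j` -/
noncomputable def sc (d : ℝ) (j : ℕ) : ℝ := d ^ (200 ^ j : ℕ)

section scale

variable {d : ℝ} (hd : 0 < d) (hd1 : d ≤ 1 / 16)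

include hd in
theorem sc_pos (j : ℕ) : 0 < sc d j := pow_pos hd _

theorem sc_succ (j : ℕ) : sc d (j + 1) = sc d j ^ 200 := by
  unfold sc
  rw [← pow_mul, pow_succ]

include hd hd1 in
theorem sc_le_d (j : ℕ) : sc d j ≤ d := by
  have h : (200 ^ j : ℕ) ≠ 0 := by positivity
  exact pow_le_of_le_one hd.le (by linarith) h

include hd hd1 in
theorem sc_le (j : ℕ) : sc d j ≤ 1 / 16 := (sc_le_d hd hd1 j).trans hd1

include hd hd1 in
theorem sc_le_half (j : ℕ) : sc d j ≤ (1 / 2 : ℝ) ^ (200 ^ j - 1 : ℕ) := by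
  have h1 : sc d j ≤ (1 / 2 : ℝ) ^ (200 ^ j : ℕ) :=
    pow_le_pow_left₀ hd.le (by linarith) _
  have h2 : (1 / 2 : ℝ) ^ (200 ^ j : ℕ) ≤ (1 / 2 : ℝ) ^ (200 ^ j - 1 : ℕ) :=
    pow_le_pow_of_le_one (by norm_num) (by norm_num) (Nat.sub_le _ _)
  exact h1.trans h2

include hd hd1 in
theorem sc_sixteen (j : ℕ) : (16 : ℝ) ^ (200 ^ (j + 1) - 1 : ℕ) * sc d j ^ 200 ≤ 1 := by
  rw [← sc_succ]
  have h1 : sc d (j + 1) ≤ (1 / 16 : ℝ) ^ (200 ^ (j + 1) : ℕ) :=
    pow_le_pow_left₀ hd.le hd1 _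
  have h2 : (1 / 16 : ℝ) ^ (200 ^ (j + 1) : ℕ) ≤ (1 / 16 : ℝ) ^ (200 ^ (j + 1) - 1 : ℕ) :=
    pow_le_pow_of_le_one (by norm_num) (by norm_num) (Nat.sub_le _ _)
  calc (16 : ℝ) ^ (200 ^ (j + 1) - 1 : ℕ) * sc d (j + 1)
      ≤ (16 : ℝ) ^ (200 ^ (j + 1) - 1 : ℕ) * (1 / 16 : ℝ) ^ (200 ^ (j + 1) - 1 : ℕ) :=
        mul_le_mul_of_nonneg_left (h1.trans h2) (by positivity)
    _ = 1 := by rw [← mul_pow]; norm_num

include hd hd1 in
theorem sc_geom (j : ℕ) : sc d j ≤ d * (1 / 2 : ℝ) ^ j := by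
  have h0 : j + 1 ≤ 200 ^ j := Nat.succ_le_of_lt (Nat.lt_pow_self (by norm_num))
  have h1 : sc d j ≤ d ^ (j + 1) := pow_le_pow_of_le_one hd.le (by linarith) h0
  have h2 : d ^ j ≤ (1 / 2 : ℝ) ^ j := pow_le_pow_left₀ hd.le (by linarith) _
  calc sc d j ≤ d ^ (j + 1) := h1
    _ = d * d ^ j := by rw [pow_succ, mul_comm]
    _ ≤ d * (1 / 2 : ℝ) ^ j := mul_le_mul_of_nonneg_left h2 hd.le

include hd hd1 in
theorem sc_sum (m : ℕ) : ∑ j ∈ range m, sc d j ≤ 2 * d := by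
  calc ∑ j ∈ range m, sc d j ≤ ∑ j ∈ range m, d * (1 / 2 : ℝ) ^ j :=
        sum_le_sum fun j _ => sc_geom hd hd1 j
    _ = d * ∑ j ∈ range m, (1 / 2 : ℝ) ^ j := by rw [mul_sum]
    _ ≤ d * 2 := mul_le_mul_of_nonneg_left (sum_geometric_two_le m) hd.le
    _ = 2 * d := by ring

include hd hd1 in
theorem sc_kap (j : ℕ) :
    ((200 ^ j - 1 : ℕ) : ℝ) * sc d j ≤ (1 / 2 : ℝ) ^ (j + 2) := by
  set N : ℕ := 200 ^ j with hN
  have hN1 : 1 ≤ N := Nat.one_le_pow _ _ (by norm_num)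
  have hN1' : (1 : ℝ) ≤ (N : ℝ) := by exact_mod_cast hN1
  have h2 : sc d j ≤ (1 / 16 : ℝ) ^ N := pow_le_pow_left₀ hd.le hd1 _
  have h3 : (N : ℝ) ≤ 2 ^ N := by exact_mod_cast (Nat.lt_two_pow_self (n := N)).le
  have h4 : (2 : ℝ) ≤ 2 ^ N := by
    calc (2 : ℝ) = 2 ^ 1 := (pow_one _).symm
      _ ≤ 2 ^ N := pow_le_pow_right₀ (by norm_num) hN1
  have h5 : (2 : ℝ) ^ j ≤ N := by
    rw [hN]; push_cast
    exact pow_le_pow_left₀ (by norm_num) (by norm_num) _
  have h6 : (16 : ℝ) ^ N = 2 ^ N * 2 ^ N * (2 ^ N * 2 ^ N) := by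
    rw [← mul_pow, ← mul_pow]; norm_num
  have h7 : 4 * (N : ℝ) * N ≤ 16 ^ N := by
    rw [h6]
    have a1 : 2 * (N : ℝ) ≤ 2 ^ N * 2 ^ N := by
      calc 2 * (N : ℝ) ≤ 2 ^ N * N := mul_le_mul_of_nonneg_right h4 (by positivity)
        _ ≤ 2 ^ N * 2 ^ N := mul_le_mul_of_nonneg_left h3 (by positivity)
    calc 4 * (N : ℝ) * N = (2 * (N : ℝ)) * (2 * N) := by ring
      _ ≤ (2 ^ N * 2 ^ N) * (2 ^ N * 2 ^ N) :=
        mul_le_mul a1 a1 (by positivity) (by positivity)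
  have h8 : ((N - 1 : ℕ) : ℝ) ≤ N := by exact_mod_cast Nat.sub_le _ _
  calc ((N - 1 : ℕ) : ℝ) * sc d j ≤ (N : ℝ) * (1 / 16 : ℝ) ^ N :=
        mul_le_mul h8 h2 (sc_pos hd j).le (by positivity)
    _ ≤ 1 / (4 * N) := by
        rw [div_pow, one_pow, mul_one_div, div_le_div_iff₀ (by positivity) (by positivity)]
        nlinarith
    _ ≤ 1 / (4 * 2 ^ j) := by
        apply one_div_le_one_div_of_le (by positivity)
        linarith
    _ = (1 / 2 : ℝ) ^ (j + 2) := by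
        rw [div_pow, one_pow, pow_add]; norm_num
        ring

end scale

section arith

variable {D : ℝ} (hD : 0 < D) (hD1 : D ≤ 1 / 16)

include hD in
theorem dp (a b : ℕ) : D ^ (a + b) / D ^ b = D ^ a := by
  rw [pow_add, mul_div_cancel_right₀ _ (pow_ne_zero _ hD.ne')]

include hD hD1 in
theorem pm {a b : ℕ} (h : b ≤ a) : D ^ a ≤ D ^ b :=
  pow_le_pow_of_le_one hD.le (by linarith) h

include hD hD1 in
/-- the bound for the irrelevant elements -/
theorem arithB {K T : ℝ} (hK : K ≤ D⁻¹) (hT : D ≤ T) (hK0 : 0 ≤ K) :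
    K * (D ^ 6040 / (D ^ 16) ^ 2 + (D ^ 16) ^ (2000 - 2) / (T * D) ^ (2 * 2000)) ≤
      2 * D ^ 6007 := by
  have h1 : D ^ 6040 / (D ^ 16) ^ 2 = D ^ 6008 := by
    rw [← pow_mul]; exact dp hD 6008 32
  have h2 : (D ^ 16) ^ (2000 - 2) / (T * D) ^ (2 * 2000) ≤ D ^ 23968 := by
    have a1 : (D ^ 16) ^ (2000 - 2) = D ^ (23968 + 8000) := by rw [← pow_mul]
    have a2 : D ^ 8000 ≤ (T * D) ^ (2 * 2000) := by
      calc D ^ 8000 = (D * D) ^ (2 * 2000) := by rw [← pow_two, ← pow_mul]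
        _ ≤ (T * D) ^ (2 * 2000) :=
          pow_le_pow_left₀ (by positivity) (mul_le_mul_of_nonneg_right hT hD.le) _
    rw [a1, div_le_iff₀ (lt_of_lt_of_le (pow_pos hD _) a2), pow_add]
    exact mul_le_mul_of_nonneg_left a2 (by positivity)
  have h3 : D ^ 23968 ≤ D ^ 6008 := pm hD hD1 (by norm_num)
  have h4 : D⁻¹ * D ^ 6008 = D ^ 6007 := by
    rw [pow_succ, mul_comm, mul_assoc, mul_inv_cancel₀ hD.ne', mul_one]
  rw [h1]
  calc K * (D ^ 6008 + (D ^ 16) ^ (2000 - 2) / (T * D) ^ (2 * 2000))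
      ≤ D⁻¹ * (D ^ 6008 + D ^ 6008) :=
        mul_le_mul hK (add_le_add le_rfl (h2.trans h3)) (by
          have : 0 < T := hD.trans_le hT
          positivity) (by positivity)
    _ = 2 * (D⁻¹ * D ^ 6008) := by ring
    _ = 2 * D ^ 6007 := by rw [h4]

include hD hD1 in
/-- the sum of all errors of one step -/
theorem arithStep {B S P : ℝ} (hB : B ≤ 2 * D ^ 6007) (hS : S * D ^ 200 ≤ 1) (hS0 : 0 ≤ S)
    (hP : D ^ 1600 * P ≤ ((D ^ 200) ^ 1600 + (D ^ 200) ^ 800 / D ^ 80000) / D ^ 40000 + D ^ 6400 +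
      (D ^ 40000 + D ^ 5800 + S * D ^ 80000 / (D ^ 5800) ^ 4 + B) / D ^ 800) :
    P ≤ D ^ 3200 := by
  have e1 : ((D ^ 200) ^ 1600 + (D ^ 200) ^ 800 / D ^ 80000) / D ^ 40000 ≤ 2 * D ^ 4801 := by
    have a1 : (D ^ 200) ^ 1600 = D ^ (280000 + 40000) := by rw [← pow_mul]
    have a2 : (D ^ 200) ^ 800 / D ^ 80000 = D ^ (40000 + 40000) := by
      rw [← pow_mul]; exact dp hD 80000 80000
    rw [a1, a2, add_div, dp hD, dp hD]
    have b1 : D ^ 280000 ≤ D ^ 4801 := pm hD hD1 (by norm_num)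
    have b2 : D ^ 40000 ≤ D ^ 4801 := pm hD hD1 (by norm_num)
    linarith
  have e2 : D ^ 6400 ≤ D ^ 4801 := pm hD hD1 (by norm_num)
  have e3 : D ^ 40000 / D ^ 800 ≤ D ^ 4801 := by
    rw [show (40000 : ℕ) = 39200 + 800 from rfl, dp hD]; exact pm hD hD1 (by norm_num)
  have e4 : D ^ 5800 / D ^ 800 ≤ D ^ 4801 := by
    rw [show (5800 : ℕ) = 5000 + 800 from rfl, dp hD]; exact pm hD hD1 (by norm_num)
  have e5 : S * D ^ 80000 / (D ^ 5800) ^ 4 / D ^ 800 ≤ D ^ 4801 := by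
    have a1 : D ^ 80000 = D ^ 200 * D ^ 55800 * ((D ^ 5800) ^ 4 * D ^ 800) := by
      rw [← pow_mul, ← pow_add, ← pow_add, ← pow_add]
    have a2 : (D ^ 5800) ^ 4 * D ^ 800 ≠ 0 := by positivity
    rw [div_div, a1, ← mul_assoc, mul_div_cancel_right₀ _ a2, ← mul_assoc]
    calc S * D ^ 200 * D ^ 55800 ≤ 1 * D ^ 55800 :=
          mul_le_mul_of_nonneg_right hS (by positivity)
      _ = D ^ 55800 := one_mul _
      _ ≤ D ^ 4801 := pm hD hD1 (by norm_num)
  have e6 : B / D ^ 800 ≤ D ^ 4801 := by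
    rw [div_le_iff₀ (by positivity)]
    have a1 : 2 * D ^ 6007 ≤ D ^ 6006 := by
      rw [show (6007 : ℕ) = 6006 + 1 from rfl, pow_succ]
      have : 0 < D ^ 6006 := by positivity
      nlinarith
    have a2 : D ^ 6006 ≤ D ^ 4801 * D ^ 800 := by
      rw [← pow_add]; exact pm hD hD1 (by norm_num)
    linarith
  have e7 : (D ^ 40000 + D ^ 5800 + S * D ^ 80000 / (D ^ 5800) ^ 4 + B) / D ^ 800 ≤
      4 * D ^ 4801 := by
    rw [add_div, add_div, add_div]; linarith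
  have e8 : 7 * D ^ 4801 ≤ D ^ 4800 := by
    rw [show (4801 : ℕ) = 4800 + 1 from rfl, pow_succ]
    have : 0 < D ^ 4800 := by positivity
    nlinarith
  have e9 : D ^ 4800 = D ^ 1600 * D ^ 3200 := by rw [← pow_add]
  have e10 : D ^ 1600 * P ≤ D ^ 1600 * D ^ 3200 := by rw [← e9]; linarith
  exact le_of_mul_le_mul_left e10 (by positivity)

include hD hD1 in
/-- the blame -/
theorem arithCH {J P T : ℝ} (hJ : 0 ≤ J) (hP0 : 0 ≤ P) (hT : D ^ 200 ≤ T) (h1 : P ≤ D ^ 3200)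
    (h2 : (D ^ 200) ^ 6040 * (T * D ^ 200) ^ (2 * 2000) * P ≤ J ^ 2000) : P ≤ D * J := by
  rcases le_total (D ^ 1600) J with h | h
  · calc P ≤ D ^ 3200 := h1
      _ = D ^ 1600 * D ^ 1600 := by rw [← pow_add]
      _ ≤ D * J := by
        apply mul_le_mul _ h (by positivity) hD.le
        calc D ^ 1600 ≤ D ^ 1 := pm hD hD1 (by norm_num)
          _ = D := pow_one _
  · have a1 : D ^ 1600000 ≤ (T * D ^ 200) ^ (2 * 2000) := by
      calc D ^ 1600000 = (D ^ 200 * D ^ 200) ^ (2 * 2000) := by rw [← pow_add, ← pow_mul]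
        _ ≤ (T * D ^ 200) ^ (2 * 2000) :=
          pow_le_pow_left₀ (by positivity) (mul_le_mul_of_nonneg_right hT (by positivity)) _
    have a2 : (D ^ 200) ^ 6040 * D ^ 1600000 * P ≤ J ^ 2000 := by
      refine le_trans ?_ h2
      exact mul_le_mul_of_nonneg_right (mul_le_mul_of_nonneg_left a1 (by positivity)) hP0
    have a3 : (D ^ 200) ^ 6040 * D ^ 1600000 = D ^ 2808000 := by
      rw [← pow_mul, ← pow_add]
    have a4 : J ^ 2000 ≤ D ^ 2808000 * (D * J) := by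
      calc J ^ 2000 = J ^ 1999 * J := by rw [← pow_succ]
        _ ≤ (D ^ 1600) ^ 1999 * J :=
          mul_le_mul_of_nonneg_right (pow_le_pow_left₀ hJ h _) hJ
        _ = D ^ 3198400 * J := by rw [← pow_mul]
        _ ≤ D ^ 2808001 * J := mul_le_mul_of_nonneg_right (pm hD hD1 (by norm_num)) hJ
        _ = D ^ 2808000 * (D * J) := by
          rw [show (2808001 : ℕ) = 2808000 + 1 from rfl, pow_succ, mul_assoc]
    rw [a3] at a2
    exact le_of_mul_le_mul_left (a2.trans a4) (by positivity)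

end arith

section prob

variable {E : Type} [Fintype E]

theorem tw_nonneg {τ : ℝ} (h0 : 0 ≤ τ) (h1 : τ ≤ 1) (b : Bool) : 0 ≤ tw τ b := by
  unfold tw; split_ifs <;> linarith

theorem w4_nonneg' {p x s : ℝ} (hp : 0 ≤ p) (hx : 0 ≤ x) (hs : 0 ≤ s) (h : p + x + s ≤ 1)
    (l : L4) : 0 ≤ w4 p x s l := by
  cases l <;> simp only [w4] <;> linarith

theorem ind_nonneg (P : Prop) : 0 ≤ ind P := by
  unfold ind; split_ifs <;> norm_num

theorem ind_mono {P Q : Prop} (h : P → Q) : ind P ≤ ind Q := by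
  unfold ind
  by_cases hP : P
  · rw [if_pos hP, if_pos (h hP)]
  · rw [if_neg hP]; split_ifs <;> norm_num

theorem PR_mono {p x s : ℝ} (hp : 0 ≤ p) (hx : 0 ≤ x) (hs : 0 ≤ s) (h : p + x + s ≤ 1)
    {F G : Finset E → Finset E → Finset E → ℝ} (hFG : ∀ V R I, F V R I ≤ G V R I) :
    PR p x s F ≤ PR p x s G :=
  EX_mono (fun _ l => w4_nonneg' hp hx hs h l) fun _ => hFG _ _ _

theorem PR_nonneg {p x s : ℝ} (hp : 0 ≤ p) (hx : 0 ≤ x) (hs : 0 ≤ s) (h : p + x + s ≤ 1)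
    {F : Finset E → Finset E → Finset E → ℝ} (hF : ∀ V R I, 0 ≤ F V R I) :
    0 ≤ PR p x s F :=
  EX_nonneg (fun _ l => w4_nonneg' hp hx hs h l) fun _ => hF _ _ _

theorem Jn_nonneg (D : Finset E → Prop) {Θ : ℝ} (h0 : 0 ≤ Θ) (h1 : Θ ≤ 1) (b : E) :
    0 ≤ Jn D Θ b :=
  EX_nonneg (fun _ l => tw_nonneg h0 h1 l) fun _ => ind_nonneg _

/-- an element of the core is declared in some small context -/
theorem sig_of_mem_core {D : Finset E → Prop} {P : Par} {R I : Finset E} {j : ℕ}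
    {X : Finset E} {b : E} (h : b ∈ core D P R I j X) :
    ∃ Q ⊆ X, sig D P R I j Q b := by
  unfold core at h
  rw [Finset.mem_sup] at h
  obtain ⟨Q, hQ, hb⟩ := h
  rw [Finset.mem_filter, Finset.mem_powerset] at hQ
  exact ⟨Q, hQ.1, hQ.2 b hb⟩

end prob

/-- the constants exist -/
theorem rowSUM : RowSUM := by
  intro hONE hCORE hSTEP hCH
  obtain ⟨t, ht0, ht1, x₀, hx0, hx1, C, hC, hone⟩ := hONE 2000 (by norm_num)
  -- the natural rate
  set Θ : ℝ := 1 / 2 * (x₀ / 20 + (1 - x₀ / 20) * x₀) + 1 / 4 * t with hΘ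
  have hxr0 : 0 < 1 / 2 * (x₀ / 20 + (1 - x₀ / 20) * x₀) := by nlinarith
  have hxr1 : 1 / 2 * (x₀ / 20 + (1 - x₀ / 20) * x₀) ≤ x₀ := by nlinarith
  have hΘ0 : 0 < Θ := by rw [hΘ]; linarith
  have hΘ1 : Θ < 1 := by rw [hΘ]; linarith
  have hΘΘ : 0 < Θ * (1 - Θ) := mul_pos hΘ0 (by linarith)
  -- the small number
  obtain ⟨d, hd0, hd1, hd2, hd3, hd4, hd5⟩ : ∃ d : ℝ, 0 < d ∧ d ≤ 1 / 16 ∧ d ≤ Θ * (1 - Θ) ∧
      d ≤ Θ / 4 ∧ d ≤ x₀ ∧ C * d ≤ 1 / 2 := by
    refine ⟨min (1 / 16) (min (Θ * (1 - Θ)) (min (Θ / 4) (min x₀ (1 / (2 * C))))), ?_,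
      min_le_left _ _, (min_le_right _ _).trans (min_le_left _ _),
      (min_le_right _ _).trans ((min_le_right _ _).trans (min_le_left _ _)),
      (min_le_right _ _).trans ((min_le_right _ _).trans ((min_le_right _ _).trans
        (min_le_left _ _))), ?_⟩
    · exact lt_min (by norm_num) (lt_min hΘΘ (lt_min (by linarith) (lt_min hx0 (by positivity))))
    · have h : min (1 / 16) (min (Θ * (1 - Θ)) (min (Θ / 4) (min x₀ (1 / (2 * C))))) ≤
          1 / (2 * C) :=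
        (min_le_right _ _).trans ((min_le_right _ _).trans ((min_le_right _ _).trans
          (min_le_right _ _)))
      calc C * min (1 / 16) (min (Θ * (1 - Θ)) (min (Θ / 4) (min x₀ (1 / (2 * C))))) ≤
          C * (1 / (2 * C)) := mul_le_mul_of_nonneg_left h hC.le
        _ = 1 / 2 := by field_simp
  have hdp0 : 0 < d ^ 6400 := pow_pos hd0 _
  have hdp1 : d ^ 6400 ≤ d := pow_le_of_le_one hd0.le (by linarith) (by norm_num)
  set p : ℝ := 1 / 2 * (x₀ / 20) * d ^ 6400 with hp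
  have hp0 : 0 < p := by rw [hp]; positivity
  have hpd : p ≤ d := by
    rw [hp]
    calc 1 / 2 * (x₀ / 20) * d ^ 6400 ≤ 1 * d ^ 6400 :=
          mul_le_mul_of_nonneg_right (by linarith) hdp0.le
      _ = d ^ 6400 := one_mul _
      _ ≤ d := hdp1
  have hsum : p + 1 / 2 + 1 / 4 ≤ 1 := by linarith
  -- the parameters
  set P : Par := { g := x₀ / 20, n := x₀, t := t, kap := fun j => 200 ^ j - 1,
                   eps := fun j => (1 / 2 : ℝ) ^ (j + 1), dl := fun j => sc d j,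
                   eta := fun j => sc d j ^ 6040, lam := fun j => sc d j ^ 800,
                   zet := fun j => sc d j ^ 1600 } with hPar
  have hTh : Th (1 / 2) (1 / 4) P = Θ := rfl
  have hxr : xr (1 / 2) P = 1 / 2 * (x₀ / 20 + (1 - x₀ / 20) * x₀) := rfl
  have hOneC : OneC 2000 p (xr (1 / 2) P) (1 / 4) P.t (1 / 2) := by
    rw [hxr]
    refine hone _ _ _ hxr0.le hxr1 hp0.le (hpd.trans hd4) (by norm_num) (by norm_num) ?_
    have : C * p ≤ C * d := mul_le_mul_of_nonneg_left hpd hC.le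
    linarith
  have hs0 : ∀ j, 0 < sc d j := sc_pos hd0
  have hs1 : ∀ j, sc d j ≤ 1 / 16 := sc_le hd0 hd1
  have hK : ∀ j, 1 / (Θ * (1 - Θ)) ≤ (sc d j)⁻¹ := by
    intro j
    rw [one_div]
    exact inv_anti₀ (hs0 j) ((sc_le_d hd0 hd1 j).trans hd2)
  have hg1 : P.g ≤ 1 / 4 := by show x₀ / 20 ≤ 1 / 4; linarith
  have hg0 : 0 < P.g := by show 0 < x₀ / 20; linarith
  have hn0 : 0 < P.n := hx0
  have hn1 : P.n ≤ 1 / 4 := by show x₀ ≤ 1 / 4; linarith
  have hT : ∀ j, sc d j ≤ (1 / 2 : ℝ) ^ P.kap j := fun j => sc_le_half hd0 hd1 j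
  -- one step
  have step : ∀ (E : Type) [Fintype E] (D : Finset E → Prop), Up D → ∀ j : ℕ,
      PR (E := E) p (1 / 2) (1 / 4) (fun V R I => ind (∃ X ⊆ V, Bad D P R I j X)) ≤
        sc d j ^ 3200 := by
    intro E _ D hDup j
    set B : ℝ := 1 / (Θ * (1 - Θ)) * (P.eta j / (sc d j ^ 16) ^ 2 +
      (sc d j ^ 16) ^ (2000 - 2) / ((1 / 2 : ℝ) ^ P.kap j * P.dl j) ^ (2 * 2000)) with hB
    have hKpos : 0 ≤ 1 / (Θ * (1 - Θ)) := by positivity
    have hB0 : 0 ≤ B := by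
      rw [hB]
      have e1 : 0 < P.eta j := pow_pos (hs0 j) _
      have e2 : 0 < P.dl j := hs0 j
      have e3 : 0 < sc d j := hs0 j
      positivity
    have hB1 : B ≤ 2 * sc d j ^ 6007 :=
      arithB (hs0 j) (hs1 j) (hK j) (hT j) hKpos
    have hcore : ∀ (K : Finset E → Finset E → Finset E → Finset E)
        (st : Finset E → Finset E → Finset E → E → Finset E),
        (∀ V R I, K V R I ⊆ V) →
        (∀ V R I, ∀ b ∈ K V R I \ core D P R I j (K V R I), st V R I b ⊆ K V R I ∧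
          ¬ sig D P R I j (st V R I b) b) →
        PR p (1 / 2) (1 / 4) (fun V R I => thin P.g R fun G => thin P.n (R \ G) fun N =>
          ind (∃ b ∈ K V R I \ core D P R I j (K V R I),
            rel D P.t (P.dl j) (P.kap j) I (st V R I b) b (G ∪ N))) ≤ B := by
      intro K st h1 h2
      have h := hCORE 2000 p (1 / 2) (1 / 4) (1 / 2) P (by norm_num) hp0.le (by norm_num)
        (by norm_num) hsum hg0.le (by linarith) hn0.le (by linarith) ht0.le (by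
          show t ≤ 1; linarith) (by norm_num) (by norm_num) hΘ0 hΘ1 hOneC E D hDup j
        (sc d j ^ 16) (pow_pos (hs0 j) _) (hs0 j) (pow_pos (hs0 j) _).le K st h1 h2
      exact h
    have h := hSTEP p (1 / 2) (1 / 4) B (sc d j ^ 5800) (sc d j ^ 80000) (sc d j ^ 40000) P
      hp0 (by norm_num) (by norm_num) hsum hg0 hg1 hn0 hn1 (by
        show x₀ / 20 / (1 - 2 * (x₀ / 20)) ≤ x₀ * (1 - x₀ / 20) / (1 - 2 * (x₀ / 20)) / 10
        rw [div_right_comm (x₀ * (1 - x₀ / 20)) _ 10]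
        apply div_le_div_of_nonneg_right _ (by linarith)
        nlinarith) ht0.le (by show t ≤ 1; linarith) (pow_pos (hs0 j) _) (pow_pos (hs0 j) _)
      (pow_pos (hs0 j) _) hB0 (by
        show p ≤ 1 / 2 * (x₀ / 20)
        rw [hp]
        have : d ^ 6400 ≤ 1 := hdp1.trans (by linarith)
        exact mul_le_of_le_one_right (by positivity) this) E D hDup j
      (pow_pos (hs0 _) _).le (pow_pos (hs0 _) _) (pow_pos (hs0 _) _).le (pow_pos (hs0 _) _)
      (hs0 j).le (by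
        show (1 / 2 : ℝ) ^ (j + 1 + 1) + ((200 ^ j - 1 : ℕ) : ℝ) * sc d j ≤ (1 / 2 : ℝ) ^ (j + 1)
        have e1 := sc_kap hd0 hd1 j
        have e2 : (1 / 2 : ℝ) ^ (j + 1) = (1 / 2 : ℝ) ^ (j + 2) + (1 / 2 : ℝ) ^ (j + 2) := by
          rw [pow_succ (1 / 2 : ℝ) (j + 1)]; ring
        linarith) hcore
    have hratio : (p / (1 / 2 * P.g)) ^ (P.kap j + 1) = sc d j ^ 6400 := by
      have e1 : p / (1 / 2 * P.g) = d ^ 6400 := by
        show p / (1 / 2 * (x₀ / 20)) = d ^ 6400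
        rw [hp, mul_div_cancel_left₀]
        positivity
      have e2 : P.kap j + 1 = 200 ^ j := by
        show 200 ^ j - 1 + 1 = 200 ^ j
        exact Nat.sub_add_cancel (Nat.one_le_pow _ _ (by norm_num))
      rw [e1, e2, sc, ← pow_mul, ← pow_mul, mul_comm]
    rw [hratio] at h
    have hz : P.zet (j + 1) = (sc d j ^ 200) ^ 1600 := by
      show sc d (j + 1) ^ 1600 = _
      rw [sc_succ]
    have hl : P.lam (j + 1) = (sc d j ^ 200) ^ 800 := by
      show sc d (j + 1) ^ 800 = _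
      rw [sc_succ]
    rw [hz, hl] at h
    exact arithStep (hs0 j) (hs1 j) hB1 (sc_sixteen hd0 hd1 j) (by positivity) h
  refine ⟨p, 1 / 2, 1 / 4, P, hp0, by norm_num, by norm_num, hsum, hg0, by linarith, hn0,
    by linarith, ht0, by show t < 1; linarith, hΘ0, hΘ1, rfl, ?_, ?_, ?_, ?_, ?_, ?_, ?_⟩
  · show (1 / 2 : ℝ) ^ (0 + 1) < 1
    norm_num
  · show sc d 0 ^ 800 < 1
    exact pow_lt_one₀ (hs0 0).le (by have := hs1 0; linarith) (by norm_num)
  · show sc d 0 ^ 1600 < 1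
    exact pow_lt_one₀ (hs0 0).le (by have := hs1 0; linarith) (by norm_num)
  · intro j
    have hj1 : sc d j < 1 := lt_of_le_of_lt (hs1 j) (by norm_num)
    refine ⟨?_, ?_, (pow_pos (hs0 j) _).le, ?_, (pow_pos (hs0 j) _).le, ?_⟩
    · show 0 ≤ (1 / 2 : ℝ) ^ (j + 1)
      positivity
    · show (1 / 2 : ℝ) ^ (j + 1) < 1
      exact pow_lt_one₀ (by norm_num) (by norm_num) (Nat.succ_ne_zero j)
    · show sc d j ^ 800 < 1
      exact pow_lt_one₀ (hs0 j).le hj1 (by norm_num)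
    · show sc d j ^ 1600 < 1
      exact pow_lt_one₀ (hs0 j).le hj1 (by norm_num)
  · intro N
    refine ⟨N, fun n hn => ?_⟩
    show N ≤ 200 ^ n - 1
    have : n < 200 ^ n := Nat.lt_pow_self (by norm_num)
    omega
  · intro c hc
    obtain ⟨n₀, hn₀⟩ := exists_pow_lt_of_lt_one (y := (1 / 2 : ℝ)) hc (by norm_num)
    refine ⟨n₀, fun n hn => ?_⟩
    have e1 : sc d n ≤ (1 / 2 : ℝ) ^ n := by
      have a1 := sc_geom hd0 hd1 n
      have a2 : 0 < (1 / 2 : ℝ) ^ n := by positivity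
      nlinarith
    have e2 : (1 / 2 : ℝ) ^ n ≤ (1 / 2 : ℝ) ^ n₀ :=
      pow_le_pow_of_le_one (by norm_num) (by norm_num) hn
    have e3 : sc d n ≤ c := (e1.trans e2).trans hn₀.le
    refine ⟨e3, ?_⟩
    show sc d n ^ 6040 ≤ c
    exact (pow_le_of_le_one (hs0 n).le (by have := hs1 n; linarith) (by norm_num)).trans e3
  · intro E _ D hDup b m
    have hJ : 0 ≤ Jn D Θ b := Jn_nonneg D hΘ0.le hΘ1.le b
    have one : ∀ j, PR p (1 / 2) (1 / 4) (fun V R I => ind (Ev D P R I j b V)) ≤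
        sc d j * Jn D Θ b := by
      intro j
      have hP0 : 0 ≤ PR p (1 / 2) (1 / 4) (fun V R I => ind (Ev D P R I j b V)) :=
        PR_nonneg hp0.le (by norm_num) (by norm_num) hsum fun _ _ _ => ind_nonneg _
      have h1 : PR p (1 / 2) (1 / 4) (fun V R I => ind (Ev D P R I j b V)) ≤ sc d j ^ 3200 := by
        refine le_trans (PR_mono hp0.le (by norm_num) (by norm_num) hsum
          fun V R I => ind_mono ?_) (step E D hDup j)
        rintro ⟨X, hX, _, _, hbad⟩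
        exact ⟨X, hX, hbad⟩
      have h2 : PR p (1 / 2) (1 / 4) (fun V R I => ind (Ev D P R I j b V)) ≤
          PR p (1 / 2) (1 / 4) (fun V R I => ind (∃ X ⊆ V, sig D P R I (j + 1) X b)) := by
        refine PR_mono hp0.le (by norm_num) (by norm_num) hsum fun V R I => ind_mono ?_
        rintro ⟨X, hX, hb, hcore, _⟩
        rw [← hcore] at hb
        obtain ⟨Q, hQ, hs⟩ := sig_of_mem_core hb
        exact ⟨Q, hQ.trans hX, hs⟩
      have h3 := hCH 2000 p (1 / 2) (1 / 4) (1 / 2) P (by norm_num) hp0.le (by norm_num)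
        (by norm_num) hsum hg0.le (by linarith) hn0.le (by linarith) ht0.le (by
          show t ≤ 1; linarith) (by norm_num) (by norm_num) hOneC E D b (j + 1) (hs0 _).le
        (pow_pos (hs0 _) _).le
      have h4 : (sc d j ^ 200) ^ 6040 *
          ((1 / 2 : ℝ) ^ P.kap (j + 1) * sc d j ^ 200) ^ (2 * 2000) *
          PR p (1 / 2) (1 / 4) (fun V R I => ind (Ev D P R I j b V)) ≤ Jn D Θ b ^ 2000 := by
        have e1 : P.eta (j + 1) = (sc d j ^ 200) ^ 6040 := by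
          show sc d (j + 1) ^ 6040 = _
          rw [sc_succ]
        have e2 : P.dl (j + 1) = sc d j ^ 200 := sc_succ j
        rw [e1, e2] at h3
        refine le_trans (mul_le_mul_of_nonneg_left h2 ?_) h3
        have := hs0 j
        positivity
      have hT' : sc d j ^ 200 ≤ (1 / 2 : ℝ) ^ P.kap (j + 1) := by
        rw [← sc_succ]; exact hT (j + 1)
      exact arithCH (hs0 j) (hs1 j) hJ hP0 hT' h1 h4
    calc ∑ j ∈ range m, PR p (1 / 2) (1 / 4) (fun V R I => ind (Ev D P R I j b V))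
        ≤ ∑ j ∈ range m, sc d j * Jn D Θ b := sum_le_sum fun j _ => one j
      _ = (∑ j ∈ range m, sc d j) * Jn D Θ b := by rw [sum_mul]
      _ ≤ (2 * d) * Jn D Θ b := mul_le_mul_of_nonneg_right (sc_sum hd0 hd1 m) hJ
      _ ≤ Θ / 2 * Jn D Θ b := mul_le_mul_of_nonneg_right (by linarith) hJ

end Vale.Agent.P331.H786
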